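import Vale.Agent.P331.Sec

namespace Vale.Agent.Results.P331.Secretary

open MeasureTheory Vale.Agent.P331
open scoped NNReal ENNReal

theorem result {E : Type} [Fintype E] [DecidableEq E] (M : Matroid E) (hM : M.E = Set.univ) :
    (∃ R : Rule M, ∀ (D : E → Measure ℝ≥0) [∀ e, IsProbabilityMeasure (D e)]
      (π : (E → ℝ≥0) → (E → ℝ≥0) → List E), (∀ S V, IsOrder (π S V)) →
      (∀ l, MeasurableSet {p : (E → ℝ≥0) × (E → ℝ≥0) | π p.1 p.2 = l}) →
      (∀ S V S' V', (∀ e, (S' e = S e ∧ V' e = V e) ∨ (S' e = V e ∧ V' e = S e)) →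
        π S' V' = π S V) →
      (1 / 4 : ℝ≥0∞) * ∫⁻ V, opt M V ∂(Measure.pi D) ≤
        (Nat.card R.Seed : ℝ≥0∞)⁻¹ * ∑ᶠ r : R.Seed, ∫⁻ p, R.gain p.1 r (π p.1 p.2) p.2
          ∂((Measure.pi D).prod (Measure.pi D))) ∧
    ∃ R : SecRule M, ∀ w : E → ℝ≥0, (1 / 4 : ℝ≥0∞) * opt M w ≤
      (Nat.card (R.Seed × {l : List E // IsOrder l}) : ℝ≥0∞)⁻¹ *
        ∑ᶠ q : R.Seed × {l : List E // IsOrder l}, R.gain q.1 q.2.1 w := by
  have c0 : (Fintype.card (St E) : ℝ≥0∞) ≠ 0 := Nat.cast_ne_zero.2 Fintype.card_ne_zero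
  have c1 : (Fintype.card (St E) : ℝ≥0∞) ≠ ⊤ := ENNReal.natCast_ne_top _
  refine ⟨⟨rule hM, fun D _ π h1 h2 h3 => ?_⟩, secRule hM, fun w => ?_⟩
  · have h := main hM D π h1 h2 h3
    have e1 : Nat.card (rule hM).Seed = Fintype.card (St E) := Nat.card_eq_fintype_card (α := St E)
    rw [e1, show (∑ᶠ r : (rule hM).Seed, ∫⁻ p, (rule hM).gain p.1 r (π p.1 p.2) p.2
        ∂((Measure.pi D).prod (Measure.pi D))) = ∑ r : St E, ∫⁻ p, (rule hM).gain p.1 r (π p.1 p.2)
        p.2 ∂((Measure.pi D).prod (Measure.pi D)) from finsum_eq_sum_of_fintype (α := St E) _,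
      ENNReal.mul_le_iff_le_inv (by simp) (by simp), ← mul_assoc, mul_comm (1 / 4 : ℝ≥0∞)⁻¹,
      mul_assoc, ← ENNReal.mul_le_iff_le_inv c0 c1]
    simpa using h
  · haveI := finite_orders (E := E)
    letI := Fintype.ofFinite {l : List E // IsOrder l}
    haveI : Nonempty {l : List E // IsOrder l} :=
      ⟨⟨Finset.univ.toList, Finset.nodup_toList _, fun e => by simp⟩⟩
    have h := sec_main hM w
    have d0 : (Fintype.card {l : List E // IsOrder l} : ℝ≥0∞) ≠ 0 :=
      Nat.cast_ne_zero.2 Fintype.card_ne_zero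
    have e1 : Nat.card ((secRule hM).Seed × {l : List E // IsOrder l}) =
        Fintype.card {l : List E // IsOrder l} * Fintype.card (St E) := by
      rw [show Nat.card ((secRule hM).Seed × {l : List E // IsOrder l}) = _ from
        Nat.card_eq_fintype_card
          (α := (List.Vector Bool (Fintype.card E) × (E → Bool)) × {l : List E // IsOrder l})]
      simp [St, mul_comm]
    rw [e1, show (∑ᶠ q : (secRule hM).Seed × {l : List E // IsOrder l},
        (secRule hM).gain q.1 q.2.1 w) = _ from finsum_eq_sum_of_fintype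
          (α := (List.Vector Bool (Fintype.card E) × (E → Bool)) × {l : List E // IsOrder l}) _,
      ENNReal.mul_le_iff_le_inv (by simp) (by simp), ← mul_assoc, mul_comm (1 / 4 : ℝ≥0∞)⁻¹,
      mul_assoc, ← ENNReal.mul_le_iff_le_inv (by simp [c0, d0]) (ENNReal.natCast_ne_top _)]
    simpa [mul_assoc] using h

end Vale.Agent.Results.P331.Secretary
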