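import Vale.Agent.P331.Main

namespace Vale.Agent.Results.P331.SwapInv

open MeasureTheory Vale.Agent.P331
open scoped NNReal ENNReal

theorem result {E : Type} [Fintype E] [DecidableEq E] (M : Matroid E) (hM : M.E = Set.univ) :
    ∃ R : Rule M, ∀ (D : E → Measure ℝ≥0) [∀ e, IsProbabilityMeasure (D e)]
      (π : (E → ℝ≥0) → (E → ℝ≥0) → List E), (∀ S V, IsOrder (π S V)) →
      (∀ l, MeasurableSet {p : (E → ℝ≥0) × (E → ℝ≥0) | π p.1 p.2 = l}) →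
      (∀ S V S' V', (∀ e, (S' e = S e ∧ V' e = V e) ∨ (S' e = V e ∧ V' e = S e)) →
        π S' V' = π S V) →
      (1 / 4 : ℝ≥0∞) * ∫⁻ V, opt M V ∂(Measure.pi D) ≤
        (Nat.card R.Seed : ℝ≥0∞)⁻¹ * ∑ᶠ r : R.Seed, ∫⁻ p, R.gain p.1 r (π p.1 p.2) p.2
          ∂((Measure.pi D).prod (Measure.pi D)) := by
  refine ⟨rule hM, fun D _ π h1 h2 h3 => ?_⟩
  have h := main hM D π h1 h2 h3
  have e1 : Nat.card (rule hM).Seed = Fintype.card (St E) := Nat.card_eq_fintype_card (α := St E)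
  have c0 : (Fintype.card (St E) : ℝ≥0∞) ≠ 0 := Nat.cast_ne_zero.2 Fintype.card_ne_zero
  have c1 : (Fintype.card (St E) : ℝ≥0∞) ≠ ⊤ := ENNReal.natCast_ne_top _
  rw [e1, show (∑ᶠ r : (rule hM).Seed, ∫⁻ p, (rule hM).gain p.1 r (π p.1 p.2) p.2
      ∂((Measure.pi D).prod (Measure.pi D))) = ∑ r : St E, ∫⁻ p, (rule hM).gain p.1 r (π p.1 p.2) p.2
      ∂((Measure.pi D).prod (Measure.pi D)) from finsum_eq_sum_of_fintype (α := St E) _,
    ENNReal.mul_le_iff_le_inv (by simp) (by simp), ← mul_assoc, mul_comm (1 / 4 : ℝ≥0∞)⁻¹,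
    mul_assoc, ← ENNReal.mul_le_iff_le_inv c0 c1]
  simpa using h

end Vale.Agent.Results.P331.SwapInv
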